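import Vale.Agent.P154.D5.K1.Data
import Vale.Agent.P154.ApxLemma

set_option maxRecDepth 100000

namespace Vale.Agent.P154.D5.K1

open PolyR Cert InT OutT

/-- The quotient polynomial for `j = 1`. -/
noncomputable def S1 (u : ℝ) : ℝ :=
  (-93 / 16777216 : ℝ) * u ^ 0 + (205 / 8388608 : ℝ) * u ^ 1 + (13905 / 16777216 : ℝ) * u ^ 2 + (-10101 / 8388608 : ℝ) * u ^ 3 + (-316309 / 16777216 : ℝ) * u ^ 4 + (27775 / 1048576 : ℝ) * u ^ 5 + (1133471 / 8388608 : ℝ) * u ^ 6 + (-2027527 / 8388608 : ℝ) * u ^ 7 + (-4119217 / 16777216 : ℝ) * u ^ 8 + (11972441 / 16777216 : ℝ) * u ^ 9 + (-6280449 / 16777216 : ℝ) * u ^ 10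

/-- Certificate polynomial. -/
def lpu1 : List ITm := [⟨(-188781738281250000000000000000000000000000000000000000000000),0,0⟩,⟨251614440307617187500000000000000000000000000000000000000000,1,0⟩,⟨9399282902822285156250000000000000000000000000000000000000000,2,0⟩,⟨(-11361349955401099430765625000000000000000000000000000000000000),3,0⟩,⟨(-147999061720245573019106626078125000000000000000000000000000000),4,0⟩,⟨172994902207861135369605689404237500000000000000000000000000000,5,0⟩,⟨734195141901286838691688890101219075278875000000000000000000000,6,0⟩,⟨(-1092646256251544143406382960011650498243676970750000000000000000),7,0⟩,⟨(-923441639355490269875713092056381026558993421655044250000000000),8,0⟩,⟨2233003122681227467084591074806010149660525505417337520134500000,9,0⟩,⟨(-974561297953024413565179524524076425841129839055116679320485849),10,0⟩]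

/-- Certificate tree. -/
def tpu1 : OutT := (A (A (A (A (O l) (O l)) (A (A (O l) (A (O l) (O l))) (A (A (A (O l) (O l)) (A (O l) (O l))) (A (A (O l) (O l)) (A (O l) (O l)))))) (A (A (A (A (O l) (O l)) (A (O l) (O l))) (A (A (O l) (O l)) (A (O l) (O l)))) (A (A (A (O l) (O l)) (A (O l) (O l))) (A (A (O l) (O l)) (A (O l) (O l)))))) (A (A (A (A (A (O l) (A (O l) (O l))) (A (A (O l) (O l)) (A (O l) (O l)))) (A (A (A (O l) (O l)) (A (A (O l) (O l)) (A (O l) (O l)))) (A (A (A (O l) (O l)) (A (O l) (O l))) (A (A (O l) (O l)) (A (A (O l) (O l)) (A (O l) (O l))))))) (A (A (A (A (A (A (O l) (O l)) (A (O l) (O l))) (A (A (O l) (O l)) (A (O l) (O l)))) (A (A (A (O l) (A (O l) (O l))) (A (A (O l) (O l)) (A (O l) (O l)))) (A (A (A (O l) (O l)) (A (O l) (O l))) (A (A (O l) (O l)) (A (O l) (O l)))))) (A (A (A (A (A (O l) (O l)) (A (O l) (O l))) (A (A (O l) (O l)) (A (A (O l) (O l)) (A (O l) (O l))))) (A (A (A (A (O l) (O l)) (A (O l) (O l))) (A (A (O l) (O l)) (A (O l) (O l)))) (A (A (A (O l) (O l)) (A (O l) (O l))) (A (A (O l) (O l))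 (A (O l) (O l)))))) (A (A (A (A (A (O l) (O l)) (O l)) (A (O l) (O l))) (A (A (O l) (O l)) (A (O l) (O l)))) (A (A (A (O l) (O l)) (A (O l) (O l))) (A (A (O l) (O l)) (A (O l) (O l))))))) (A (A (A (A (A (A (O l) (O l)) (A (O l) (O l))) (A (A (O l) (O l)) (A (O l) (O l)))) (A (A (O l) (O l)) (A (O l) (O l)))) (A (A (A (O l) (O l)) (A (O l) (O l))) (A (A (O l) (O l)) (A (O l) (O l))))) (A (A (A (A (O l) (O l)) (A (O l) (O l))) (A (A (O l) (O l)) (A (O l) (O l)))) (A (A (A (O l) (O l)) (A (O l) (O l))) (A (A (O l) (O l)) (O l))))))) (A (A (A (A (A (A (O l) (O l)) (A (O l) (O l))) (A (A (O l) (O l)) (A (O l) (O l)))) (A (A (A (O l) (O l)) (A (O l) (O l))) (A (A (O l) (O l)) (A (O l) (O l))))) (A (A (A (A (O l) (O l)) (A (O l) (O l))) (A (A (O l) (O l)) (A (O l) (O l)))) (A (A (A (O l) (O l)) (A (O l) (O l))) (A (A (O l) (O l)) (A (O l) (O l)))))) (A (A (A (A (A (A (O l) (O l)) (A (O l) (O l))) (A (A (O l) (O l)) (A (O l) (O l)))) (A (A (A (O l) (O l)) (A (O l) (O l))) (A (A (O l) (O l)) (A (O l) (O l))))) (A (A (A (A (O l) (O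 l)) (A (O l) (O l))) (A (A (O l) (O l)) (A (O l) (O l)))) (A (A (A (O l) (A (O l) (O l))) (A (A (O l) (O l)) (A (O l) (O l)))) (A (A (A (O l) (O l)) (A (O l) (O l))) (A (A (O l) (O l)) (A (O l) (O l))))))) (A (A (A (A (A (A (O l) (O l)) (A (O l) (O l))) (A (A (O l) (O l)) (A (O l) (A (O l) (O l))))) (A (A (A (A (O l) (O l)) (A (O l) (O l))) (A (A (O l) (O l)) (A (O l) (O l)))) (A (A (A (O l) (O l)) (A (O l) (O l))) (A (A (O l) (O l)) (A (O l) (O l)))))) (A (A (A (A (A (O l) (A (O l) (O l))) (A (A (O l) (O l)) (A (O l) (O l)))) (A (A (A (O l) (O l)) (A (O l) (O l))) (A (A (O l) (O l)) (A (O l) (O l))))) (A (A (A (A (O l) (O l)) (A (O l) (O l))) (A (A (O l) (O l)) (A (O l) (O l)))) (A (A (A (O l) (O l)) (A (O l) (O l))) (A (A (O l) (O l)) (A (O l) (O l)))))) (A (A (A (A (A (O l) (O l)) (A (O l) (O l))) (A (A (O l) (O l)) (A (O l) (O l)))) (A (A (A (O l) (O l)) (A (O l) (O l))) (A (A (O l) (O l)) (A (O l) (O l))))) (A (A (A (A (O l) (O l)) (A (O l) (O l))) (A (O l) (O l))) (A (A (O l) (O l)) (A (O l) (O l))))))) (A (A (A (A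 (A (A (O l) (O l)) (A (O l) (O l))) (A (A (O l) (O l)) (A (O l) (O l)))) (A (A (A (O l) (O l)) (A (O l) (O l))) (A (O l) (O l)))) (A (A (A (O l) (O l)) (A (O l) (O l))) (A (A (O l) (O l)) (A (O l) (O l))))) (A (A (A (A (O l) (O l)) (A (O l) (O l))) (A (A (O l) (O l)) (O l))) (A (A (O l) (O l)) (A (O l) (O l))))))))))

theorem hpu1 (x : ℝ) (h0 : 0 ≤ x) (h1 : x ≤ 1) : evalIL lpu1 x 0 ≤ 0 :=
  uni_le 10 65536 lpu1 (by norm_num) (by norm_num) (by decide +kernel)
    (chkOut_sound (uniPb 10 65536 lpu1) tpu1 0 32768 0 32768 (by decide +kernel)) x h0 h1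

/-- Certificate polynomial. -/
def lpl1 : List ITm := [⟨(-7141113281250000000000000000000000000000000000000000000000),0,0⟩,⟨(-414617942504882812500000000000000000000000000000000000000000),1,0⟩,⟨(-9399282902822285156250000000000000000000000000000000000000000),2,0⟩,⟨11361349955401099430765625000000000000000000000000000000000000,3,0⟩,⟨147999061720245573019106626078125000000000000000000000000000000,4,0⟩,⟨(-172994902207861135369605689404237500000000000000000000000000000),5,0⟩,⟨(-734195141901286838691688890101219075278875000000000000000000000),6,0⟩,⟨1092646256251544143406382960011650498243676970750000000000000000,7,0⟩,⟨923441639355490269875713092056381026558993421655044250000000000,8,0⟩,⟨(-2233003122681227467084591074806010149660525505417337520134500000),9,0⟩,⟨974561297953024413565179524524076425841129839055116679320485849,10,0⟩]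

/-- Certificate tree. -/
def tpl1 : OutT := (A (A (A (A (A (O l) (O l)) (O l)) (A (O l) (O l))) (A (A (A (O l) (O l)) (A (A (O l) (O l)) (A (O l) (O l)))) (A (A (A (A (O l) (O l)) (A (O l) (O l))) (A (A (A (O l) (O l)) (A (O l) (O l))) (A (A (O l) (O l)) (A (A (O l) (O l)) (A (O l) (O l)))))) (A (A (A (A (A (O l) (O l)) (A (O l) (O l))) (A (A (O l) (O l)) (A (O l) (O l)))) (A (A (A (O l) (O l)) (A (O l) (O l))) (A (A (O l) (O l)) (A (O l) (O l))))) (A (A (A (O l) (O l)) (A (O l) (O l))) (A (A (O l) (O l)) (A (O l) (O l)))))))) (A (A (A (A (A (A (A (O l) (O l)) (A (O l) (O l))) (A (O l) (O l))) (A (A (O l) (O l)) (A (O l) (O l)))) (A (A (A (O l) (O l)) (A (O l) (O l))) (A (A (O l) (O l)) (A (O l) (O l))))) (A (A (A (A (O l) (O l)) (A (O l) (O l))) (A (A (O l) (O l)) (A (O l) (O l)))) (A (A (A (O l) (A (O l) (O l))) (A (A (O l) (O l)) (A (O l) (O l)))) (A (A (A (O l) (O l)) (A (O l) (O l))) (A (A (O l) (O l)) (A (O l) (O l))))))) (A (A (A (A (A (A (O l) (O l)) (A (O l) (O l))) (A (A (O l) (A (O l) (O l))) (A (A (O l) (O l))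 (A (O l) (O l))))) (A (A (A (A (O l) (O l)) (A (O l) (O l))) (A (A (O l) (O l)) (A (O l) (O l)))) (A (A (A (O l) (O l)) (A (O l) (O l))) (A (A (O l) (A (O l) (O l))) (A (A (O l) (O l)) (A (O l) (O l))))))) (A (A (A (A (A (A (O l) (O l)) (A (O l) (O l))) (A (A (O l) (O l)) (A (O l) (O l)))) (A (A (A (O l) (O l)) (A (O l) (O l))) (A (A (O l) (O l)) (A (O l) (O l))))) (A (A (A (A (A (O l) (O l)) (A (O l) (O l))) (A (A (O l) (O l)) (A (O l) (O l)))) (A (A (A (O l) (O l)) (A (O l) (O l))) (A (A (O l) (O l)) (A (O l) (O l))))) (A (A (A (A (O l) (O l)) (A (O l) (O l))) (A (A (O l) (O l)) (A (O l) (O l)))) (A (A (A (O l) (O l)) (A (O l) (O l))) (A (A (O l) (O l)) (A (O l) (O l))))))) (A (A (A (A (A (A (O l) (O l)) (A (O l) (O l))) (A (A (O l) (O l)) (A (O l) (O l)))) (A (A (A (O l) (O l)) (A (O l) (O l))) (A (A (O l) (O l)) (A (O l) (O l))))) (A (A (A (A (O l) (O l)) (A (O l) (O l))) (A (A (O l) (O l)) (A (O l) (O l)))) (A (A (A (O l) (O l)) (A (O l) (O l))) (A (A (O l) (O l)) (A (O l) (O l)))))) (A (A (A (A (A (O l) (O l)) (A (O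 l) (O l))) (A (A (O l) (O l)) (A (O l) (O l)))) (A (A (O l) (O l)) (A (O l) (O l)))) (A (A (A (O l) (O l)) (A (O l) (O l))) (A (A (O l) (O l)) (A (O l) (O l)))))))) (A (A (A (A (A (A (A (O l) (O l)) (A (O l) (O l))) (A (A (O l) (O l)) (A (O l) (O l)))) (A (A (A (O l) (O l)) (A (O l) (O l))) (A (A (O l) (O l)) (A (O l) (O l))))) (A (A (A (O l) (O l)) (A (O l) (O l))) (A (A (O l) (O l)) (A (O l) (O l))))) (A (A (A (A (O l) (O l)) (A (O l) (O l))) (A (A (O l) (O l)) (A (O l) (O l)))) (A (A (A (O l) (O l)) (A (O l) (O l))) (A (A (O l) (O l)) (A (O l) (O l)))))) (A (A (A (A (A (O l) (O l)) (A (O l) (O l))) (A (A (O l) (O l)) (A (O l) (O l)))) (A (A (A (O l) (O l)) (A (O l) (O l))) (A (A (O l) (O l)) (A (O l) (O l))))) (A (A (A (A (O l) (O l)) (A (O l) (O l))) (A (A (O l) (O l)) (A (O l) (O l)))) (A (A (A (O l) (O l)) (A (O l) (A (O l) (O l)))) (A (A (A (O l) (O l)) (A (O l) (O l))) (A (A (O l) (O l)) (A (A (O l) (O l)) (A (O l) (A (O l) (O l)))))))))))))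

theorem hpl1 (x : ℝ) (h0 : 0 ≤ x) (h1 : x ≤ 1) : evalIL lpl1 x 0 ≤ 0 :=
  uni_le 10 65536 lpl1 (by norm_num) (by norm_num) (by decide +kernel)
    (chkOut_sound (uniPb 10 65536 lpl1) tpl1 0 32768 0 32768 (by decide +kernel)) x h0 h1

/-- Certificate polynomial. -/
def lnu1 : List ITm := [⟨(-193312500000000000000000000000000000000000000000000000000000000),0,0⟩,⟨(-128826593437500000000000000000000000000000000000000000000000000),1,0⟩,⟨2406216423122505000000000000000000000000000000000000000000000000,2,0⟩,⟨1454252794291340727138000000000000000000000000000000000000000000,3,0⟩,⟨(-9471939950095716673222824069000000000000000000000000000000000000),4,0⟩,⟨(-5535836870651556331827382060935600000000000000000000000000000000),5,0⟩,⟨11747122270420589419067022241619505204462000000000000000000000000,6,0⟩,⟨8741170050012353147251063680093203985949415766000000000000000000,7,0⟩,⟨(-3693766557421961079502852368225524106235973686620177000000000000),8,0⟩,⟨(-4466006245362454934169182149612020299321051010834675040269000000),9,0⟩,⟨(-974561297953024413565179524524076425841129839055116679320485849),10,0⟩]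

/-- Certificate tree. -/
def tnu1 : OutT := (A (A (O l) (A (A (O l) (A (O l) (O l))) (A (A (A (O l) (O l)) (A (O l) (A (O l) (O l)))) (A (A (A (O l) (O l)) (A (O l) (O l))) (A (O l) (O l)))))) (A (A (A (A (A (O l) (O l)) (O l)) (A (O l) (O l))) (A (A (O l) (O l)) (A (O l) (O l)))) (A (A (A (O l) (O l)) (A (A (O l) (O l)) (A (O l) (O l)))) (A (A (A (O l) (A (O l) (O l))) (A (A (O l) (A (O l) (O l))) (A (A (O l) (A (O l) (O l))) (A (A (O l) (O l)) (A (O l) (O l)))))) (A (A (A (A (A (O l) (O l)) (A (O l) (O l))) (A (O l) (O l))) (A (A (O l) (O l)) (O l))) (A (A (O l) (O l)) (O l)))))))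

theorem hnu1 (x : ℝ) (h0 : 0 ≤ x) (h1 : x ≤ 1) : evalIL lnu1 x 0 ≤ 0 :=
  uni_le 10 65536 lnu1 (by norm_num) (by norm_num) (by decide +kernel)
    (chkOut_sound (uniPb 10 65536 lnu1) tnu1 0 32768 0 32768 (by decide +kernel)) x h0 h1

/-- Certificate polynomial. -/
def lnl1 : List ITm := [⟨(-7312500000000000000000000000000000000000000000000000000000000),0,0⟩,⟨212284386562500000000000000000000000000000000000000000000000000,1,0⟩,⟨(-2406216423122505000000000000000000000000000000000000000000000000),2,0⟩,⟨(-1454252794291340727138000000000000000000000000000000000000000000),3,0⟩,⟨9471939950095716673222824069000000000000000000000000000000000000,4,0⟩,⟨5535836870651556331827382060935600000000000000000000000000000000,5,0⟩,⟨(-11747122270420589419067022241619505204462000000000000000000000000),6,0⟩,⟨(-8741170050012353147251063680093203985949415766000000000000000000),7,0⟩,⟨3693766557421961079502852368225524106235973686620177000000000000,8,0⟩,⟨4466006245362454934169182149612020299321051010834675040269000000,9,0⟩,⟨974561297953024413565179524524076425841129839055116679320485849,10,0⟩]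

/-- Certificate tree. -/
def tnl1 : OutT := (A (A (A (A (A (O l) (O l)) (A (O l) (O l))) (A (O l) (O l))) (A (O l) (O l))) (A (A (A (O l) (A (O l) (O l))) (A (A (O l) (A (O l) (O l))) (A (A (O l) (A (O l) (O l))) (A (A (O l) (A (O l) (O l))) (A (A (O l) (O l)) (A (O l) (O l))))))) (A (A (A (A (A (A (O l) (O l)) (A (O l) (O l))) (A (O l) (O l))) (A (A (O l) (O l)) (A (O l) (O l)))) (A (A (O l) (O l)) (A (O l) (O l)))) (A (A (A (O l) (O l)) (A (O l) (O l))) (A (A (O l) (O l)) (A (O l) (A (O l) (A (O l) (A (O l) (O l))))))))))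

theorem hnl1 (x : ℝ) (h0 : 0 ≤ x) (h1 : x ≤ 1) : evalIL lnl1 x 0 ≤ 0 :=
  uni_le 10 65536 lnl1 (by norm_num) (by norm_num) (by decide +kernel)
    (chkOut_sound (uniPb 10 65536 lnl1) tnl1 0 32768 0 32768 (by decide +kernel)) x h0 h1

theorem apx1 (u : ℝ) (h0 : -(415989 / 1000000 : ℝ) ≤ u) (h1 : u ≤ 2 * (415989 / 1000000 : ℝ)) :
    |((1 + u)⁻¹) ^ 1 - evalZ Ax.p1 (3 * u) / Ax.D1| ≤ Ax.e1 * |u| ^ Ax.m1 := by
  have hu : 0 < 1 + u := by norm_num at h0 ⊢; linarith
  refine apx_of_S 1 2 _ (S1 u) _ u hu ?_ ?_ ?_
  · simp only [Ax, evalZ_cons, evalZ_nil, S1]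
    push_cast
    ring
  · rcases le_total 0 u with hs | hs
    · have hx := hpu1 (u / (2 * (415989 / 1000000 : ℝ))) (by positivity) (by rw [div_le_one (by norm_num)]; exact h1)
      have e : evalIL lpu1 (u / (2 * (415989 / 1000000 : ℝ))) 0 = 16384000000000000000000000000000000000000000000000000000000000000 * (S1 u - Ax.e1 * (1 + u) ^ 1) := by
        simp only [lpu1, evalIL, List.map_cons, List.map_nil, List.sum_cons, List.sum_nil, S1, Ax]
        push_cast
        ring
      rw [e] at hx
      have := cmul_nonpos (by norm_num) hx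
      simp only [Ax] at this ⊢
      linarith
    · have hx := hnu1 (-u / (415989 / 1000000 : ℝ)) (by apply div_nonneg <;> [linarith; norm_num]) (by rw [div_le_one (by norm_num)]; linarith)
      have e : evalIL lnu1 (-u / (415989 / 1000000 : ℝ)) 0 = 16777216000000000000000000000000000000000000000000000000000000000000 * (S1 u - Ax.e1 * (1 + u) ^ 1) := by
        simp only [lnu1, evalIL, List.map_cons, List.map_nil, List.sum_cons, List.sum_nil, S1, Ax]
        push_cast
        ring
      rw [e] at hx
      have := cmul_nonpos (by norm_num) hx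
      simp only [Ax] at this ⊢
      linarith
  · rcases le_total 0 u with hs | hs
    · have hx := hpl1 (u / (2 * (415989 / 1000000 : ℝ))) (by positivity) (by rw [div_le_one (by norm_num)]; exact h1)
      have e : evalIL lpl1 (u / (2 * (415989 / 1000000 : ℝ))) 0 = 16384000000000000000000000000000000000000000000000000000000000000 * (-S1 u - Ax.e1 * (1 + u) ^ 1) := by
        simp only [lpl1, evalIL, List.map_cons, List.map_nil, List.sum_cons, List.sum_nil, S1, Ax]
        push_cast
        ring
      rw [e] at hx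
      have := cmul_nonpos (by norm_num) hx
      simp only [Ax] at this ⊢
      linarith
    · have hx := hnl1 (-u / (415989 / 1000000 : ℝ)) (by apply div_nonneg <;> [linarith; norm_num]) (by rw [div_le_one (by norm_num)]; linarith)
      have e : evalIL lnl1 (-u / (415989 / 1000000 : ℝ)) 0 = 16777216000000000000000000000000000000000000000000000000000000000000 * (-S1 u - Ax.e1 * (1 + u) ^ 1) := by
        simp only [lnl1, evalIL, List.map_cons, List.map_nil, List.sum_cons, List.sum_nil, S1, Ax]
        push_cast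
        ring
      rw [e] at hx
      have := cmul_nonpos (by norm_num) hx
      simp only [Ax] at this ⊢
      linarith

/-- The quotient polynomial for `j = 2`. -/
noncomputable def S2 (u : ℝ) : ℝ :=
  (-149 / 2097152 : ℝ) * u ^ 0 + (5043 / 16777216 : ℝ) * u ^ 1 + (46033 / 4194304 : ℝ) * u ^ 2 + (-32177 / 4194304 : ℝ) * u ^ 3 + (-2161835 / 8388608 : ℝ) * u ^ 4 + (1159023 / 8388608 : ℝ) * u ^ 5 + (17235239 / 8388608 : ℝ) * u ^ 6 + (-1665993 / 1048576 : ℝ) * u ^ 7 + (-50414185 / 8388608 : ℝ) * u ^ 8 + (13372981 / 2097152 : ℝ) * u ^ 9 + (951933 / 262144 : ℝ) * u ^ 10 + (-75320035 / 16777216 : ℝ) * u ^ 11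

/-- Certificate polynomial. -/
def lpu2 : List ITm := [⟨(-242918395996093750000000000000000000000000000000000000000000000000),0,0⟩,⟨199222271026611328125000000000000000000000000000000000000000000000,1,0⟩,⟨12359094824348522808837890625000000000000000000000000000000000000000,2,0⟩,⟨(-7238375557171392463790625000000000000000000000000000000000000000000),3,0⟩,⟨(-202301895674158552774508706984375000000000000000000000000000000000000),4,0⟩,⟨90236305374285255040272950022667668750000000000000000000000000000000,5,0⟩,⟨1116396338618949498699631956577560868675987500000000000000000000000000,6,0⟩,⟨(-718250761401955695625668182647605540550820039400000000000000000000000),7,0⟩,⟨(-2260359560720931537775947556530885530110941364492349250000000000000000),8,0⟩,⟨1995376437106299306816403561221999919128763401479210578851600000000000,9,0⟩,⟨945376546212480173010144506872068688622968709230825386804631891200000,10,0⟩,⟨(-972390758744433092911153898414188342453282404258104006141655857433723),11,0⟩]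

/-- Certificate tree. -/
def tpu2 : OutT := (A (A (A (A (O l) (O l)) (A (A (O l) (A (O l) (O l))) (A (A (A (O l) (O l)) (A (O l) (O l))) (A (A (O l) (O l)) (O l))))) (A (A (A (A (O l) (O l)) (A (O l) (O l))) (A (O l) (O l))) (A (A (O l) (O l)) (A (A (O l) (O l)) (A (O l) (O l)))))) (A (A (A (A (A (O l) (O l)) (A (A (O l) (O l)) (A (O l) (O l)))) (A (A (A (O l) (O l)) (A (O l) (O l))) (A (A (A (O l) (O l)) (A (O l) (O l))) (A (A (O l) (O l)) (A (O l) (O l)))))) (A (A (A (A (A (A (O l) (O l)) (A (O l) (O l))) (A (A (O l) (O l)) (A (O l) (O l)))) (A (A (A (O l) (O l)) (A (O l) (A (O l) (O l)))) (A (A (A (O l) (O l)) (A (O l) (O l))) (A (A (O l) (O l)) (A (O l) (O l)))))) (A (A (A (A (A (O l) (O l)) (A (O l) (O l))) (A (A (O l) (O l)) (A (O l) (O l)))) (A (A (A (O l) (O l)) (A (O l) (O l))) (A (A (O l) (O l)) (A (O l) (O l))))) (A (A (A (A (O l) (O l)) (A (O l) (O l))) (A (A (O l) (O l)) (A (O l) (O l)))) (A (A (A (O l) (O l)) (A (O l) (O l))) (A (A (O l) (O l)) (O l)))))) (A (A (A (A (A (O l) (O l)) (A (O l) (O l))) (A (A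 (O l) (O l)) (A (O l) (O l)))) (A (A (A (O l) (O l)) (A (O l) (O l))) (A (A (O l) (O l)) (A (O l) (O l))))) (A (A (A (A (O l) (O l)) (O l)) (A (O l) (O l))) (A (A (O l) (O l)) (A (O l) (O l))))))) (A (A (A (A (A (A (O l) (O l)) (A (O l) (O l))) (A (A (O l) (O l)) (A (O l) (O l)))) (A (A (A (O l) (O l)) (A (O l) (O l))) (A (A (O l) (O l)) (A (O l) (O l))))) (A (A (A (A (O l) (O l)) (A (O l) (O l))) (A (A (O l) (O l)) (A (O l) (O l)))) (A (A (A (O l) (O l)) (A (O l) (O l))) (A (A (O l) (O l)) (A (O l) (O l)))))) (A (A (A (A (A (O l) (O l)) (A (O l) (O l))) (A (A (O l) (O l)) (A (A (O l) (O l)) (A (O l) (O l))))) (A (A (A (A (O l) (O l)) (A (O l) (O l))) (A (A (O l) (O l)) (A (O l) (O l)))) (A (A (A (O l) (O l)) (A (O l) (O l))) (A (A (O l) (O l)) (A (A (O l) (O l)) (A (O l) (O l))))))) (A (A (A (A (A (A (O l) (O l)) (A (O l) (O l))) (A (A (O l) (O l)) (A (O l) (O l)))) (A (A (A (O l) (O l)) (A (A (O l) (O l)) (A (O l) (O l)))) (A (A (A (O l) (O l)) (A (O l) (O l))) (A (A (O l) (O l)) (A (O l) (O l)))))) (A (A (A (A (A (O l)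 (O l)) (A (O l) (O l))) (A (A (O l) (O l)) (A (A (O l) (O l)) (A (O l) (O l))))) (A (A (A (A (O l) (O l)) (A (O l) (O l))) (A (A (O l) (O l)) (A (O l) (O l)))) (A (A (A (O l) (O l)) (A (O l) (O l))) (A (A (O l) (O l)) (A (O l) (O l)))))) (A (A (A (A (A (O l) (O l)) (A (O l) (O l))) (A (A (O l) (O l)) (A (O l) (O l)))) (A (A (A (O l) (O l)) (O l)) (A (O l) (O l)))) (A (A (A (O l) (O l)) (A (O l) (O l))) (A (A (O l) (O l)) (A (O l) (O l))))))) (A (A (A (A (A (A (O l) (O l)) (A (O l) (O l))) (A (A (O l) (O l)) (O l))) (A (A (O l) (O l)) (A (O l) (O l)))) (A (A (A (O l) (O l)) (A (O l) (O l))) (A (A (O l) (O l)) (A (O l) (O l))))) (A (A (A (O l) (O l)) (A (O l) (O l))) (A (A (O l) (O l)) (A (O l) (O l))))))))))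

theorem hpu2 (x : ℝ) (h0 : 0 ≤ x) (h1 : x ≤ 1) : evalIL lpu2 x 0 ≤ 0 :=
  uni_le 11 65536 lpu2 (by norm_num) (by norm_num) (by decide +kernel)
    (chkOut_sound (uniPb 11 65536 lpu2) tpu2 0 32768 0 32768 (by decide +kernel)) x h0 h1

/-- Certificate polynomial. -/
def lpl2 : List ITm := [⟨(-10105895996093750000000000000000000000000000000000000000000000000),0,0⟩,⟨(-620243559832763671875000000000000000000000000000000000000000000000),1,0⟩,⟨(-12534235049257705316162109375000000000000000000000000000000000000000),2,0⟩,⟨7238375557171392463790625000000000000000000000000000000000000000000,3,0⟩,⟨202301895674158552774508706984375000000000000000000000000000000000000,4,0⟩,⟨(-90236305374285255040272950022667668750000000000000000000000000000000),5,0⟩,⟨(-1116396338618949498699631956577560868675987500000000000000000000000000),6,0⟩,⟨718250761401955695625668182647605540550820039400000000000000000000000,7,0⟩,⟨2260359560720931537775947556530885530110941364492349250000000000000000,8,0⟩,⟨(-1995376437106299306816403561221999919128763401479210578851600000000000),9,0⟩,⟨(-945376546212480173010144506872068688622968709230825386804631891200000),10,0⟩,⟨972390758744433092911153898414188342453282404258104006141655857433723,11,0⟩]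

/-- Certificate tree. -/
def tpl2 : OutT := (A (A (A (A (A (O l) (O l)) (O l)) (A (O l) (O l))) (A (A (A (O l) (O l)) (A (O l) (A (O l) (O l)))) (A (A (A (A (O l) (O l)) (A (O l) (O l))) (A (A (O l) (A (O l) (O l))) (A (A (O l) (O l)) (A (A (O l) (O l)) (A (O l) (O l)))))) (A (A (A (A (A (O l) (O l)) (A (O l) (O l))) (A (A (O l) (O l)) (A (O l) (O l)))) (A (A (A (O l) (O l)) (A (O l) (O l))) (A (O l) (O l)))) (A (A (A (O l) (O l)) (A (O l) (O l))) (A (A (O l) (O l)) (A (O l) (O l)))))))) (A (A (A (A (A (A (O l) (O l)) (A (O l) (O l))) (A (A (O l) (O l)) (A (O l) (O l)))) (A (A (A (O l) (O l)) (A (O l) (O l))) (A (A (O l) (O l)) (A (O l) (O l))))) (A (A (A (A (O l) (O l)) (A (O l) (O l))) (A (A (O l) (O l)) (A (O l) (O l)))) (A (A (A (O l) (O l)) (A (O l) (O l))) (A (A (O l) (A (O l) (O l))) (A (A (O l) (O l)) (A (O l) (O l))))))) (A (A (A (A (A (A (O l) (O l)) (A (O l) (O l))) (A (A (O l) (O l)) (A (O l) (O l)))) (A (A (A (O l) (A (O l) (O l))) (A (A (O l) (O l)) (A (O l) (O l)))) (A (A (A (O l) (O l)) (A (O l) (O l)))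 (A (A (O l) (O l)) (A (O l) (O l)))))) (A (A (A (A (A (O l) (A (O l) (O l))) (A (A (O l) (O l)) (A (O l) (O l)))) (A (A (A (O l) (O l)) (A (O l) (O l))) (A (A (O l) (O l)) (A (O l) (O l))))) (A (A (A (A (O l) (O l)) (A (O l) (A (O l) (O l)))) (A (A (A (O l) (O l)) (A (O l) (O l))) (A (A (O l) (O l)) (A (O l) (O l))))) (A (A (A (A (O l) (O l)) (A (O l) (O l))) (A (A (O l) (O l)) (A (O l) (O l)))) (A (A (A (O l) (O l)) (A (O l) (O l))) (A (A (O l) (O l)) (A (O l) (O l))))))) (A (A (A (A (A (A (O l) (O l)) (A (O l) (O l))) (A (A (O l) (O l)) (A (O l) (O l)))) (A (A (A (O l) (O l)) (A (O l) (O l))) (A (A (O l) (O l)) (A (O l) (O l))))) (A (A (A (A (O l) (O l)) (A (O l) (O l))) (A (A (O l) (O l)) (A (O l) (O l)))) (A (A (A (O l) (O l)) (A (O l) (O l))) (A (O l) (O l))))) (A (A (A (A (O l) (O l)) (A (O l) (O l))) (A (A (O l) (O l)) (A (O l) (O l)))) (A (A (A (O l) (O l)) (A (O l) (O l))) (A (A (O l) (O l)) (A (O l) (O l)))))))) (A (A (A (A (A (A (A (O l) (O l)) (A (O l) (O l))) (A (O l) (O l))) (A (A (O l) (O l)) (A (O l) (O l))))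 (A (A (A (O l) (O l)) (A (O l) (O l))) (A (A (O l) (O l)) (A (O l) (O l))))) (A (A (A (A (O l) (O l)) (A (O l) (O l))) (A (A (O l) (O l)) (A (O l) (O l)))) (A (A (A (O l) (O l)) (A (O l) (O l))) (A (A (O l) (O l)) (O l))))) (A (A (A (A (O l) (O l)) (A (O l) (O l))) (A (A (O l) (O l)) (A (O l) (A (O l) (O l))))) (A (A (A (A (O l) (O l)) (A (O l) (O l))) (A (A (O l) (O l)) (A (O l) (O l)))) (A (A (A (O l) (O l)) (A (O l) (O l))) (A (A (O l) (A (O l) (O l))) (A (A (O l) (O l)) (A (A (O l) (O l)) (A (O l) (A (O l) (O l)))))))))))))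

theorem hpl2 (x : ℝ) (h0 : 0 ≤ x) (h1 : x ≤ 1) : evalIL lpl2 x 0 ≤ 0 :=
  uni_le 11 65536 lpl2 (by norm_num) (by norm_num) (by decide +kernel)
    (chkOut_sound (uniPb 11 65536 lpl2) tpl2 0 32768 0 32768 (by decide +kernel)) x h0 h1

/-- Certificate polynomial. -/
def lnu2 : List ITm := [⟨(-497496875000000000000000000000000000000000000000000000000000000000000),0,0⟩,⟨(-204003605531250000000000000000000000000000000000000000000000000000000),1,0⟩,⟨6327856550066443678125000000000000000000000000000000000000000000000000,2,0⟩,⟨1853024142635876470730400000000000000000000000000000000000000000000000,3,0⟩,⟨(-25894642646292294755137114494000000000000000000000000000000000000000000),4,0⟩,⟨(-5775123543954256322577468801450730800000000000000000000000000000000000),5,0⟩,⟨35724682835806383958388222610481947797631600000000000000000000000000000,6,0⟩,⟨11492012182431291130010690922361688648813120630400000000000000000000000,7,0⟩,⟨(-18082876485767452302207580452247084240887530915938794000000000000000000),8,0⟩,⟨(-7981505748425197227265614244887999676515053605916842315406400000000000),9,0⟩,⟨1890753092424960346020289013744137377245937418461650773609263782400000,10,0⟩,⟨972390758744433092911153898414188342453282404258104006141655857433723,11,0⟩]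

/-- Certificate tree. -/
def tnu2 : OutT := (A (A (O l) (A (A (O l) (A (O l) (O l))) (A (A (O l) (A (O l) (A (O l) (O l)))) (A (A (A (O l) (O l)) (A (O l) (O l))) (A (O l) (O l)))))) (A (A (A (A (A (O l) (O l)) (O l)) (A (O l) (O l))) (A (A (O l) (O l)) (A (O l) (O l)))) (A (A (A (O l) (O l)) (A (A (O l) (O l)) (A (O l) (O l)))) (A (A (A (A (O l) (O l)) (A (O l) (O l))) (A (A (A (O l) (O l)) (A (O l) (O l))) (A (A (O l) (A (O l) (O l))) (A (A (O l) (O l)) (A (O l) (O l)))))) (A (A (A (A (A (O l) (O l)) (A (O l) (O l))) (A (A (O l) (O l)) (O l))) (A (A (O l) (O l)) (A (O l) (O l)))) (A (A (O l) (O l)) (A (O l) (O l))))))))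

theorem hnu2 (x : ℝ) (h0 : 0 ≤ x) (h1 : x ≤ 1) : evalIL lnu2 x 0 ≤ 0 :=
  uni_le 11 65536 lnu2 (by norm_num) (by norm_num) (by decide +kernel)
    (chkOut_sound (uniPb 11 65536 lnu2) tnu2 0 32768 0 32768 (by decide +kernel)) x h0 h1

/-- Certificate polynomial. -/
def lnl2 : List ITm := [⟨(-20696875000000000000000000000000000000000000000000000000000000000000),0,0⟩,⟨635129405268750000000000000000000000000000000000000000000000000000000,1,0⟩,⟨(-6417528345219945121875000000000000000000000000000000000000000000000000),2,0⟩,⟨(-1853024142635876470730400000000000000000000000000000000000000000000000),3,0⟩,⟨25894642646292294755137114494000000000000000000000000000000000000000000,4,0⟩,⟨5775123543954256322577468801450730800000000000000000000000000000000000,5,0⟩,⟨(-35724682835806383958388222610481947797631600000000000000000000000000000),6,0⟩,⟨(-11492012182431291130010690922361688648813120630400000000000000000000000),7,0⟩,⟨18082876485767452302207580452247084240887530915938794000000000000000000,8,0⟩,⟨7981505748425197227265614244887999676515053605916842315406400000000000,9,0⟩,⟨(-1890753092424960346020289013744137377245937418461650773609263782400000),10,0⟩,⟨(-972390758744433092911153898414188342453282404258104006141655857433723),11,0⟩]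

/-- Certificate tree. -/
def tnl2 : OutT := (A (A (A (A (A (O l) (O l)) (A (O l) (O l))) (A (O l) (O l))) (A (O l) (O l))) (A (A (A (O l) (A (O l) (O l))) (A (A (O l) (A (O l) (O l))) (A (A (O l) (A (O l) (O l))) (A (A (O l) (A (O l) (O l))) (A (A (O l) (O l)) (A (O l) (O l))))))) (A (A (A (A (A (A (O l) (O l)) (A (O l) (O l))) (A (A (O l) (O l)) (A (O l) (O l)))) (A (A (O l) (O l)) (A (O l) (O l)))) (A (A (A (O l) (O l)) (O l)) (A (O l) (O l)))) (A (A (A (O l) (O l)) (A (O l) (O l))) (A (A (O l) (O l)) (A (A (O l) (O l)) (A (O l) (A (O l) (A (O l) (O l))))))))))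

theorem hnl2 (x : ℝ) (h0 : 0 ≤ x) (h1 : x ≤ 1) : evalIL lnl2 x 0 ≤ 0 :=
  uni_le 11 65536 lnl2 (by norm_num) (by norm_num) (by decide +kernel)
    (chkOut_sound (uniPb 11 65536 lnl2) tnl2 0 32768 0 32768 (by decide +kernel)) x h0 h1

theorem apx2 (u : ℝ) (h0 : -(415989 / 1000000 : ℝ) ≤ u) (h1 : u ≤ 2 * (415989 / 1000000 : ℝ)) :
    |((1 + u)⁻¹) ^ 2 - evalZ Ax.p2 (3 * u) / Ax.D2| ≤ Ax.e2 * |u| ^ Ax.m2 := by
  have hu : 0 < 1 + u := by norm_num at h0 ⊢; linarith
  refine apx_of_S 2 2 _ (S2 u) _ u hu ?_ ?_ ?_
  · simp only [Ax, evalZ_cons, evalZ_nil, S2]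
    push_cast
    ring
  · rcases le_total 0 u with hs | hs
    · have hx := hpu2 (u / (2 * (415989 / 1000000 : ℝ))) (by positivity) (by rw [div_le_one (by norm_num)]; exact h1)
      have e : evalIL lpu2 (u / (2 * (415989 / 1000000 : ℝ))) 0 = 1638400000000000000000000000000000000000000000000000000000000000000000 * (S2 u - Ax.e2 * (1 + u) ^ 2) := by
        simp only [lpu2, evalIL, List.map_cons, List.map_nil, List.sum_cons, List.sum_nil, S2, Ax]
        push_cast
        ring
      rw [e] at hx
      have := cmul_nonpos (by norm_num) hx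
      simp only [Ax] at this ⊢
      linarith
    · have hx := hnu2 (-u / (415989 / 1000000 : ℝ)) (by apply div_nonneg <;> [linarith; norm_num]) (by rw [div_le_one (by norm_num)]; linarith)
      have e : evalIL lnu2 (-u / (415989 / 1000000 : ℝ)) 0 = 3355443200000000000000000000000000000000000000000000000000000000000000000 * (S2 u - Ax.e2 * (1 + u) ^ 2) := by
        simp only [lnu2, evalIL, List.map_cons, List.map_nil, List.sum_cons, List.sum_nil, S2, Ax]
        push_cast
        ring
      rw [e] at hx
      have := cmul_nonpos (by norm_num) hx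
      simp only [Ax] at this ⊢
      linarith
  · rcases le_total 0 u with hs | hs
    · have hx := hpl2 (u / (2 * (415989 / 1000000 : ℝ))) (by positivity) (by rw [div_le_one (by norm_num)]; exact h1)
      have e : evalIL lpl2 (u / (2 * (415989 / 1000000 : ℝ))) 0 = 1638400000000000000000000000000000000000000000000000000000000000000000 * (-S2 u - Ax.e2 * (1 + u) ^ 2) := by
        simp only [lpl2, evalIL, List.map_cons, List.map_nil, List.sum_cons, List.sum_nil, S2, Ax]
        push_cast
        ring
      rw [e] at hx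
      have := cmul_nonpos (by norm_num) hx
      simp only [Ax] at this ⊢
      linarith
    · have hx := hnl2 (-u / (415989 / 1000000 : ℝ)) (by apply div_nonneg <;> [linarith; norm_num]) (by rw [div_le_one (by norm_num)]; linarith)
      have e : evalIL lnl2 (-u / (415989 / 1000000 : ℝ)) 0 = 3355443200000000000000000000000000000000000000000000000000000000000000000 * (-S2 u - Ax.e2 * (1 + u) ^ 2) := by
        simp only [lnl2, evalIL, List.map_cons, List.map_nil, List.sum_cons, List.sum_nil, S2, Ax]
        push_cast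
        ring
      rw [e] at hx
      have := cmul_nonpos (by norm_num) hx
      simp only [Ax] at this ⊢
      linarith

/-- The quotient polynomial for `j = 3`. -/
noncomputable def S3 (u : ℝ) : ℝ :=
  (-18759 / 16777216 : ℝ) * u ^ 0 + (-92633 / 4194304 : ℝ) * u ^ 1 + (1316767 / 16777216 : ℝ) * u ^ 2 + (1027019 / 1048576 : ℝ) * u ^ 3 + (-7367819 / 8388608 : ℝ) * u ^ 4 + (-179218869 / 16777216 : ℝ) * u ^ 5 + (20967143 / 4194304 : ℝ) * u ^ 6 + (176982947 / 4194304 : ℝ) * u ^ 7 + (-288806565 / 16777216 : ℝ) * u ^ 8 + (-984925923 / 16777216 : ℝ) * u ^ 9 + (234793143 / 16777216 : ℝ) * u ^ 10 + (29584123 / 1048576 : ℝ) * u ^ 11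

/-- Certificate polynomial. -/
def lpu3 : List ITm := [⟨(-1437809467315673828125000000000000000000000000000000000000000000000),0,0⟩,⟨(-11567597407736778259277343750000000000000000000000000000000000000000),1,0⟩,⟨26018319814476671258926391601562500000000000000000000000000000000000,2,0⟩,⟨288292934551439944262834026336669921875000000000000000000000000000000,3,0⟩,⟨(-215459862611520304819824357401367187500000000000000000000000000000000),4,0⟩,⟨(-2180183303081294694391077058322508477539062500000000000000000000000000),5,0⟩,⟨848829311146335737243529712618559761657992187500000000000000000000000,6,0⟩,⟨5961072110874339028550922961612997617084269235359375000000000000000000,7,0⟩,⟨(-2023260790826781815677345924012471534423871241532295039062500000000000),8,0⟩,⟨(-5740638703264152120772726566972828454014101061576051662159484375000000),9,0⟩,⟨1138554694659122243970436747049521674303487764085592225220382216968750,10,0⟩,⟨1909673024631403462966659866967325019717796758943850242799774476338847,11,0⟩]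

/-- Certificate tree. -/
def tpu3 : OutT := (A (A (A (O l) (A (O l) (A (O l) (O l)))) (A (A (A (O l) (A (O l) (A (O l) (O l)))) (A (A (A (O l) (O l)) (A (O l) (O l))) (A (A (O l) (O l)) (A (O l) (O l))))) (A (A (A (O l) (O l)) (A (O l) (O l))) (A (A (O l) (O l)) (O l))))) (A (A (A (A (O l) (O l)) (A (A (O l) (O l)) (A (O l) (O l)))) (A (A (A (O l) (O l)) (A (O l) (O l))) (A (A (A (O l) (O l)) (A (O l) (O l))) (A (A (O l) (O l)) (A (O l) (O l)))))) (A (A (A (A (A (A (O l) (O l)) (A (O l) (O l))) (A (A (O l) (O l)) (A (O l) (A (O l) (O l))))) (A (A (A (A (O l) (O l)) (A (O l) (O l))) (A (A (O l) (O l)) (A (O l) (A (O l) (O l))))) (A (A (A (A (O l) (O l)) (A (O l) (O l))) (A (A (O l) (O l)) (A (O l) (O l)))) (A (A (A (O l) (O l)) (A (O l) (O l))) (A (A (O l) (O l)) (A (O l) (O l))))))) (A (A (A (A (A (A (O l) (O l)) (A (O l) (O l))) (A (O l) (O l))) (A (A (O l) (O l)) (A (O l) (O l)))) (A (A (A (O l) (O l)) (A (O l) (O l))) (A (A (O l) (O l)) (O l)))) (A (A (A (O l) (O l)) (A (O l) (O l))) (A (A (O l) (O l)) (A (O l) (O l))))))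 (A (A (A (A (A (O l) (O l)) (A (O l) (O l))) (A (O l) (O l))) (A (A (O l) (O l)) (A (O l) (O l)))) (A (A (A (O l) (O l)) (A (O l) (O l))) (A (A (O l) (A (O l) (O l))) (A (A (O l) (O l)) (A (A (O l) (O l)) (A (O l) (A (O l) (A (O l) (O l))))))))))))

theorem hpu3 (x : ℝ) (h0 : 0 ≤ x) (h1 : x ≤ 1) : evalIL lpu3 x 0 ≤ 0 :=
  uni_le 11 65536 lpu3 (by norm_num) (by norm_num) (by decide +kernel)
    (chkOut_sound (uniPb 11 65536 lpu3) tpu3 0 32768 0 32768 (by decide +kernel)) x h0 h1

/-- Certificate polynomial. -/
def lpl3 : List ITm := [⟨(-292850971221923828125000000000000000000000000000000000000000000000),0,0⟩,⟨7247983176735877990722656250000000000000000000000000000000000000000,1,0⟩,⟨(-29612143823156338262557983398437500000000000000000000000000000000000),2,0⟩,⟨(-289289595388471041594283161163330078125000000000000000000000000000000),3,0⟩,⟨215459862611520304819824357401367187500000000000000000000000000000000,4,0⟩,⟨2180183303081294694391077058322508477539062500000000000000000000000000,5,0⟩,⟨(-848829311146335737243529712618559761657992187500000000000000000000000),6,0⟩,⟨(-5961072110874339028550922961612997617084269235359375000000000000000000),7,0⟩,⟨2023260790826781815677345924012471534423871241532295039062500000000000,8,0⟩,⟨5740638703264152120772726566972828454014101061576051662159484375000000,9,0⟩,⟨(-1138554694659122243970436747049521674303487764085592225220382216968750),10,0⟩,⟨(-1909673024631403462966659866967325019717796758943850242799774476338847),11,0⟩]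

/-- Certificate tree. -/
def tpl3 : OutT := (A (A (A (A (A (O l) (A (O l) (O l))) (A (A (O l) (O l)) (O l))) (A (A (O l) (O l)) (O l))) (A (A (O l) (O l)) (A (A (O l) (O l)) (A (O l) (A (O l) (O l)))))) (A (A (A (A (A (O l) (A (O l) (O l))) (A (A (O l) (O l)) (A (O l) (A (O l) (O l))))) (A (A (A (A (O l) (O l)) (A (O l) (A (O l) (O l)))) (A (A (A (O l) (O l)) (A (O l) (O l))) (A (A (O l) (O l)) (A (O l) (O l))))) (A (A (A (A (O l) (O l)) (A (O l) (O l))) (A (A (O l) (O l)) (O l))) (A (A (O l) (O l)) (A (O l) (O l)))))) (A (A (A (A (A (O l) (O l)) (A (O l) (O l))) (A (O l) (O l))) (A (A (O l) (O l)) (A (O l) (O l)))) (A (A (A (O l) (O l)) (A (O l) (O l))) (A (A (O l) (O l)) (A (O l) (O l)))))) (A (A (A (A (A (O l) (O l)) (A (O l) (O l))) (A (A (O l) (O l)) (A (O l) (O l)))) (A (A (A (O l) (O l)) (A (O l) (O l))) (A (A (O l) (O l)) (A (O l) (O l))))) (A (A (A (A (O l) (O l)) (A (A (O l) (O l)) (A (O l) (O l)))) (A (A (A (O l) (O l)) (A (O l) (O l))) (A (A (A (O l) (O l)) (A (O l) (O l))) (A (A (O l) (O l)) (A (O l) (O l))))))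 (A (A (A (A (A (A (O l) (O l)) (A (O l) (O l))) (A (A (O l) (O l)) (A (O l) (O l)))) (A (A (A (O l) (O l)) (A (O l) (O l))) (A (A (O l) (O l)) (A (O l) (O l))))) (A (A (A (A (O l) (O l)) (A (O l) (O l))) (A (A (O l) (O l)) (A (O l) (O l)))) (A (A (O l) (O l)) (A (O l) (O l))))) (A (A (A (A (O l) (O l)) (A (O l) (O l))) (A (O l) (O l))) (A (A (O l) (O l)) (A (O l) (O l)))))))))

theorem hpl3 (x : ℝ) (h0 : 0 ≤ x) (h1 : x ≤ 1) : evalIL lpl3 x 0 ≤ 0 :=
  uni_le 11 65536 lpl3 (by norm_num) (by norm_num) (by decide +kernel)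
    (chkOut_sound (uniPb 11 65536 lpl3) tpl3 0 32768 0 32768 (by decide +kernel)) x h0 h1

/-- Certificate polynomial. -/
def lnu3 : List ITm := [⟨(-2944633789062500000000000000000000000000000000000000000000000000000000),0,0⟩,⟨11845219745522460937500000000000000000000000000000000000000000000000000,1,0⟩,⟨13321379745012055684570312500000000000000000000000000000000000000000000,2,0⟩,⟨(-73802991245168625731285510742187500000000000000000000000000000000000000),3,0⟩,⟨(-27578862414274599016937517747375000000000000000000000000000000000000000),4,0⟩,⟨139531731397202860441028931732640542562500000000000000000000000000000000,5,0⟩,⟨27162537956682743591792950803793912373055750000000000000000000000000000,6,0⟩,⟨(-95377153773989424456814767385807961873348307765750000000000000000000000),7,0⟩,⟨(-16186086326614254525418767392099772275390969932258360312500000000000000),8,0⟩,⟨22962554813056608483090906267891313816056404246304206648637937500000000,9,0⟩,⟨2277109389318244487940873494099043348606975528171184450440764433937500,10,0⟩,⟨(-1909673024631403462966659866967325019717796758943850242799774476338847),11,0⟩]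

/-- Certificate tree. -/
def tnu3 : OutT := (A (A (A (O l) (A (O l) (O l))) (A (A (A (O l) (O l)) (A (A (O l) (O l)) (A (O l) (O l)))) (A (A (A (O l) (O l)) (O l)) (A (O l) (O l))))) (A (A (A (O l) (O l)) (A (O l) (A (O l) (O l)))) (A (A (A (O l) (O l)) (A (A (O l) (O l)) (A (O l) (A (O l) (O l))))) (A (A (A (A (O l) (O l)) (A (O l) (A (O l) (O l)))) (A (A (A (O l) (O l)) (A (A (O l) (O l)) (A (O l) (O l)))) (A (A (A (O l) (O l)) (A (O l) (O l))) (A (A (O l) (O l)) (A (O l) (O l)))))) (A (A (A (A (O l) (O l)) (A (O l) (O l))) (A (O l) (O l))) (A (A (O l) (O l)) (O l)))))))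

theorem hnu3 (x : ℝ) (h0 : 0 ≤ x) (h1 : x ≤ 1) : evalIL lnu3 x 0 ≤ 0 :=
  uni_le 11 65536 lnu3 (by norm_num) (by norm_num) (by decide +kernel)
    (chkOut_sound (uniPb 11 65536 lnu3) tnu3 0 32768 0 32768 (by decide +kernel)) x h0 h1

/-- Certificate polynomial. -/
def lnl3 : List ITm := [⟨(-599758789062500000000000000000000000000000000000000000000000000000000),0,0⟩,⟨(-7421934772977539062500000000000000000000000000000000000000000000000000),1,0⟩,⟨(-15161417637456045190429687500000000000000000000000000000000000000000000),2,0⟩,⟨74058136419448586648136489257812500000000000000000000000000000000000000,3,0⟩,⟨27578862414274599016937517747375000000000000000000000000000000000000000,4,0⟩,⟨(-139531731397202860441028931732640542562500000000000000000000000000000000),5,0⟩,⟨(-27162537956682743591792950803793912373055750000000000000000000000000000),6,0⟩,⟨95377153773989424456814767385807961873348307765750000000000000000000000,7,0⟩,⟨16186086326614254525418767392099772275390969932258360312500000000000000,8,0⟩,⟨(-22962554813056608483090906267891313816056404246304206648637937500000000),9,0⟩,⟨(-2277109389318244487940873494099043348606975528171184450440764433937500),10,0⟩,⟨1909673024631403462966659866967325019717796758943850242799774476338847,11,0⟩]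

/-- Certificate tree. -/
def tnl3 : OutT := (A (A (A (O l) (O l)) (A (O l) (A (O l) (O l)))) (A (A (A (O l) (A (O l) (O l))) (A (A (A (O l) (O l)) (A (A (O l) (O l)) (A (O l) (O l)))) (A (A (A (A (O l) (O l)) (A (O l) (O l))) (A (A (O l) (O l)) (A (O l) (O l)))) (A (A (A (O l) (O l)) (O l)) (A (O l) (O l)))))) (A (A (A (A (A (O l) (O l)) (O l)) (A (O l) (O l))) (A (A (O l) (O l)) (A (O l) (O l)))) (A (A (A (O l) (O l)) (A (O l) (O l))) (A (A (O l) (O l)) (A (O l) (A (O l) (A (O l) (A (O l) (O l))))))))))

theorem hnl3 (x : ℝ) (h0 : 0 ≤ x) (h1 : x ≤ 1) : evalIL lnl3 x 0 ≤ 0 :=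
  uni_le 11 65536 lnl3 (by norm_num) (by norm_num) (by decide +kernel)
    (chkOut_sound (uniPb 11 65536 lnl3) tnl3 0 32768 0 32768 (by decide +kernel)) x h0 h1

theorem apx3 (u : ℝ) (h0 : -(415989 / 1000000 : ℝ) ≤ u) (h1 : u ≤ 2 * (415989 / 1000000 : ℝ)) :
    |((1 + u)⁻¹) ^ 3 - evalZ Ax.p3 (3 * u) / Ax.D3| ≤ Ax.e3 * |u| ^ Ax.m3 := by
  have hu : 0 < 1 + u := by norm_num at h0 ⊢; linarith
  refine apx_of_S 3 2 _ (S3 u) _ u hu ?_ ?_ ?_
  · simp only [Ax, evalZ_cons, evalZ_nil, S3]
    push_cast
    ring
  · rcases le_total 0 u with hs | hs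
    · have hx := hpu3 (u / (2 * (415989 / 1000000 : ℝ))) (by positivity) (by rw [div_le_one (by norm_num)]; exact h1)
      have e : evalIL lpu3 (u / (2 * (415989 / 1000000 : ℝ))) 0 = 512000000000000000000000000000000000000000000000000000000000000000000 * (S3 u - Ax.e3 * (1 + u) ^ 3) := by
        simp only [lpu3, evalIL, List.map_cons, List.map_nil, List.sum_cons, List.sum_nil, S3, Ax]
        push_cast
        ring
      rw [e] at hx
      have := cmul_nonpos (by norm_num) hx
      simp only [Ax] at this ⊢
      linarith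
    · have hx := hnu3 (-u / (415989 / 1000000 : ℝ)) (by apply div_nonneg <;> [linarith; norm_num]) (by rw [div_le_one (by norm_num)]; linarith)
      have e : evalIL lnu3 (-u / (415989 / 1000000 : ℝ)) 0 = 1048576000000000000000000000000000000000000000000000000000000000000000000 * (S3 u - Ax.e3 * (1 + u) ^ 3) := by
        simp only [lnu3, evalIL, List.map_cons, List.map_nil, List.sum_cons, List.sum_nil, S3, Ax]
        push_cast
        ring
      rw [e] at hx
      have := cmul_nonpos (by norm_num) hx
      simp only [Ax] at this ⊢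
      linarith
  · rcases le_total 0 u with hs | hs
    · have hx := hpl3 (u / (2 * (415989 / 1000000 : ℝ))) (by positivity) (by rw [div_le_one (by norm_num)]; exact h1)
      have e : evalIL lpl3 (u / (2 * (415989 / 1000000 : ℝ))) 0 = 512000000000000000000000000000000000000000000000000000000000000000000 * (-S3 u - Ax.e3 * (1 + u) ^ 3) := by
        simp only [lpl3, evalIL, List.map_cons, List.map_nil, List.sum_cons, List.sum_nil, S3, Ax]
        push_cast
        ring
      rw [e] at hx
      have := cmul_nonpos (by norm_num) hx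
      simp only [Ax] at this ⊢
      linarith
    · have hx := hnl3 (-u / (415989 / 1000000 : ℝ)) (by apply div_nonneg <;> [linarith; norm_num]) (by rw [div_le_one (by norm_num)]; linarith)
      have e : evalIL lnl3 (-u / (415989 / 1000000 : ℝ)) 0 = 1048576000000000000000000000000000000000000000000000000000000000000000000 * (-S3 u - Ax.e3 * (1 + u) ^ 3) := by
        simp only [lnl3, evalIL, List.map_cons, List.map_nil, List.sum_cons, List.sum_nil, S3, Ax]
        push_cast
        ring
      rw [e] at hx
      have := cmul_nonpos (by norm_num) hx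
      simp only [Ax] at this ⊢
      linarith

/-- The quotient polynomial for `j = 4`. -/
noncomputable def S4 (u : ℝ) : ℝ :=
  (159143 / 16777216 : ℝ) * u ^ 0 + (-4055635 / 16777216 : ℝ) * u ^ 1 + (-15363659 / 8388608 : ℝ) * u ^ 2 + (36455051 / 8388608 : ℝ) * u ^ 3 + (276877475 / 8388608 : ℝ) * u ^ 4 + (-59041935 / 4194304 : ℝ) * u ^ 5 + (-722953569 / 4194304 : ℝ) * u ^ 6 + (-200512557 / 16777216 : ℝ) * u ^ 7 + (5364156335 / 16777216 : ℝ) * u ^ 8 + (1900984621 / 16777216 : ℝ) * u ^ 9 + (-1663676877 / 8388608 : ℝ) * u ^ 10 + (-1848206495 / 16777216 : ℝ) * u ^ 11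

/-- Certificate polynomial. -/
def lpu4 : List ITm := [⟨(-22340249633789062500000000000000000000000000000000000000000000000000),0,0⟩,⟨(-455578122675805664062500000000000000000000000000000000000000000000000),1,0⟩,⟨(-2234383670167002372436523437500000000000000000000000000000000000000000),2,0⟩,⟨4013110525178431794753076464843750000000000000000000000000000000000000,3,0⟩,⟨25891708148608459633344370659805224609375000000000000000000000000000000,4,0⟩,⟨(-9193477742113315610727686849176578937500000000000000000000000000000000),5,0⟩,⟨(-93657270133950805221286433219081053105680225000000000000000000000000000),6,0⟩,⟨(-5402869967637283039702764437493675576038288971912500000000000000000000),7,0⟩,⟨120253080130314534247277238499371954931974397415679528375000000000000000,8,0⟩,⟨35455631770179445447512260359270810796850595100670037234194450000000000,9,0⟩,⟨(-51631821120545812857165922605360233940366142254820607505053106215400000),10,0⟩,⟨(-23860569315845900594859430070547273307499668230624739892068932864460311),11,0⟩]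

/-- Certificate tree. -/
def tpu4 : OutT := (A (A (A (A (O l) (O l)) (O l)) (A (A (O l) (O l)) (A (A (O l) (A (O l) (O l))) (A (A (O l) (A (O l) (O l))) (A (A (O l) (A (O l) (O l))) (A (A (O l) (O l)) (A (O l) (O l)))))))) (A (A (A (A (A (A (O l) (O l)) (A (O l) (O l))) (A (O l) (O l))) (A (A (O l) (O l)) (A (O l) (O l)))) (A (A (O l) (O l)) (A (O l) (O l)))) (A (A (A (O l) (A (O l) (O l))) (A (A (O l) (O l)) (A (O l) (A (O l) (O l))))) (A (A (A (A (O l) (O l)) (A (O l) (A (O l) (O l)))) (A (A (A (O l) (O l)) (A (O l) (O l))) (A (A (A (O l) (O l)) (A (O l) (O l))) (A (A (O l) (O l)) (A (O l) (O l)))))) (A (A (A (A (A (O l) (O l)) (A (O l) (O l))) (A (A (O l) (O l)) (O l))) (A (A (O l) (O l)) (A (O l) (O l)))) (A (A (O l) (O l)) (A (O l) (O l))))))))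

theorem hpu4 (x : ℝ) (h0 : 0 ≤ x) (h1 : x ≤ 1) : evalIL lpu4 x 0 ≤ 0 :=
  uni_le 11 65536 lpu4 (by norm_num) (by norm_num) (by decide +kernel)
    (chkOut_sound (uniPb 11 65536 lpu4) tpu4 0 32768 0 32768 (by decide +kernel)) x h0 h1

/-- Certificate polynomial. -/
def lpl4 : List ITm := [⟨(-53422866821289062500000000000000000000000000000000000000000000000000),0,0⟩,⟨203445138267553710937500000000000000000000000000000000000000000000000,1,0⟩,⟨1919730026013989407250976562500000000000000000000000000000000000000000,2,0⟩,⟨(-4187633798215188741919170410156250000000000000000000000000000000000000),3,0⟩,⟨(-25928008029522103376191708786913525390625000000000000000000000000000000),4,0⟩,⟨9193477742113315610727686849176578937500000000000000000000000000000000,5,0⟩,⟨93657270133950805221286433219081053105680225000000000000000000000000000,6,0⟩,⟨5402869967637283039702764437493675576038288971912500000000000000000000,7,0⟩,⟨(-120253080130314534247277238499371954931974397415679528375000000000000000),8,0⟩,⟨(-35455631770179445447512260359270810796850595100670037234194450000000000),9,0⟩,⟨51631821120545812857165922605360233940366142254820607505053106215400000,10,0⟩,⟨23860569315845900594859430070547273307499668230624739892068932864460311,11,0⟩]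

/-- Certificate tree. -/
def tpl4 : OutT := (A (A (A (A (O l) (O l)) (A (A (O l) (A (O l) (O l))) (A (A (O l) (O l)) (A (O l) (O l))))) (A (A (A (O l) (O l)) (O l)) (A (O l) (O l)))) (A (A (A (A (O l) (O l)) (A (O l) (O l))) (A (A (A (O l) (O l)) (A (O l) (O l))) (A (A (A (O l) (O l)) (A (O l) (O l))) (A (A (A (O l) (O l)) (A (O l) (O l))) (A (A (O l) (O l)) (A (A (O l) (O l)) (A (O l) (O l)))))))) (A (A (A (A (A (A (A (O l) (O l)) (A (O l) (O l))) (A (A (O l) (O l)) (O l))) (A (A (O l) (O l)) (A (O l) (O l)))) (A (A (A (O l) (O l)) (O l)) (A (O l) (O l)))) (A (A (A (O l) (O l)) (A (O l) (O l))) (A (O l) (O l)))) (A (A (A (O l) (O l)) (A (O l) (O l))) (A (A (O l) (O l)) (A (A (O l) (O l)) (A (O l) (A (O l) (A (O l) (A (O l) (O l)))))))))))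

theorem hpl4 (x : ℝ) (h0 : 0 ≤ x) (h1 : x ≤ 1) : evalIL lpl4 x 0 ≤ 0 :=
  uni_le 11 65536 lpl4 (by norm_num) (by norm_num) (by decide +kernel)
    (chkOut_sound (uniPb 11 65536 lpl4) tpl4 0 32768 0 32768 (by decide +kernel)) x h0 h1

/-- Certificate polynomial. -/
def lnu4 : List ITm := [⟨(-45752831250000000000000000000000000000000000000000000000000000000000000),0,0⟩,⟨466511997620025000000000000000000000000000000000000000000000000000000000,1,0⟩,⟨(-1144004439125505214687500000000000000000000000000000000000000000000000000),2,0⟩,⟨(-1027356294445678539456787575000000000000000000000000000000000000000000000),3,0⟩,⟨3314138643021882833068079444455068750000000000000000000000000000000000000,4,0⟩,⟨588382575495252199086571958347301052000000000000000000000000000000000000,5,0⟩,⟨(-2997032644286425767081165863010593699381767200000000000000000000000000000),6,0⟩,⟨86445919482196528635244230999898809216612623550600000000000000000000000,7,0⟩,⟨962024641042516273978217907994975639455795179325436227000000000000000000,8,0⟩,⟨(-141822527080717781790049041437083243187402380402680148936777800000000000),9,0⟩,⟨(-103263642241091625714331845210720467880732284509641215010106212430800000),10,0⟩,⟨23860569315845900594859430070547273307499668230624739892068932864460311,11,0⟩]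

/-- Certificate tree. -/
def tnu4 : OutT := (A (A (A (A (O l) (O l)) (A (A (O l) (O l)) (A (O l) (O l)))) (A (A (A (O l) (O l)) (O l)) (A (O l) (O l)))) (A (A (A (O l) (O l)) (A (O l) (A (O l) (O l)))) (A (A (A (O l) (O l)) (A (A (O l) (O l)) (A (O l) (A (O l) (O l))))) (A (A (A (A (O l) (A (O l) (O l))) (A (A (O l) (O l)) (A (O l) (A (O l) (O l))))) (A (A (A (A (O l) (O l)) (A (O l) (O l))) (A (A (O l) (O l)) (O l))) (A (A (O l) (O l)) (A (O l) (O l))))) (A (A (A (O l) (O l)) (A (O l) (O l))) (A (O l) (O l)))))))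

theorem hnu4 (x : ℝ) (h0 : 0 ≤ x) (h1 : x ≤ 1) : evalIL lnu4 x 0 ≤ 0 :=
  uni_le 11 65536 lnu4 (by norm_num) (by norm_num) (by decide +kernel)
    (chkOut_sound (uniPb 11 65536 lnu4) tnu4 0 32768 0 32768 (by decide +kernel)) x h0 h1

/-- Certificate polynomial. -/
def lnl4 : List ITm := [⟨(-109410031250000000000000000000000000000000000000000000000000000000000000),0,0⟩,⟨(-208327821585975000000000000000000000000000000000000000000000000000000000),1,0⟩,⟨982901773319162576512500000000000000000000000000000000000000000000000000,2,0⟩,⟨1072034252343088317931307625000000000000000000000000000000000000000000000,3,0⟩,⟨(-3318785027778829232152538724724931250000000000000000000000000000000000000),4,0⟩,⟨(-588382575495252199086571958347301052000000000000000000000000000000000000),5,0⟩,⟨2997032644286425767081165863010593699381767200000000000000000000000000000,6,0⟩,⟨(-86445919482196528635244230999898809216612623550600000000000000000000000),7,0⟩,⟨(-962024641042516273978217907994975639455795179325436227000000000000000000),8,0⟩,⟨141822527080717781790049041437083243187402380402680148936777800000000000,9,0⟩,⟨103263642241091625714331845210720467880732284509641215010106212430800000,10,0⟩,⟨(-23860569315845900594859430070547273307499668230624739892068932864460311),11,0⟩]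

/-- Certificate tree. -/
def tnl4 : OutT := (A (A (O l) (A (O l) (A (O l) (O l)))) (A (A (A (A (O l) (O l)) (A (A (O l) (O l)) (A (A (O l) (O l)) (A (O l) (O l))))) (A (A (A (A (O l) (O l)) (A (O l) (O l))) (A (A (O l) (O l)) (A (O l) (O l)))) (A (A (O l) (O l)) (A (O l) (O l))))) (A (A (A (A (O l) (O l)) (O l)) (A (O l) (O l))) (A (A (O l) (A (O l) (O l))) (A (A (O l) (O l)) (A (O l) (A (O l) (A (O l) (A (O l) (O l))))))))))

theorem hnl4 (x : ℝ) (h0 : 0 ≤ x) (h1 : x ≤ 1) : evalIL lnl4 x 0 ≤ 0 :=
  uni_le 11 65536 lnl4 (by norm_num) (by norm_num) (by decide +kernel)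
    (chkOut_sound (uniPb 11 65536 lnl4) tnl4 0 32768 0 32768 (by decide +kernel)) x h0 h1

theorem apx4 (u : ℝ) (h0 : -(415989 / 1000000 : ℝ) ≤ u) (h1 : u ≤ 2 * (415989 / 1000000 : ℝ)) :
    |((1 + u)⁻¹) ^ 4 - evalZ Ax.p4 (3 * u) / Ax.D4| ≤ Ax.e4 * |u| ^ Ax.m4 := by
  have hu : 0 < 1 + u := by norm_num at h0 ⊢; linarith
  refine apx_of_S 4 2 _ (S4 u) _ u hu ?_ ?_ ?_
  · simp only [Ax, evalZ_cons, evalZ_nil, S4]
    push_cast
    ring
  · rcases le_total 0 u with hs | hs
    · have hx := hpu4 (u / (2 * (415989 / 1000000 : ℝ))) (by positivity) (by rw [div_le_one (by norm_num)]; exact h1)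
      have e : evalIL lpu4 (u / (2 * (415989 / 1000000 : ℝ))) 0 = 1638400000000000000000000000000000000000000000000000000000000000000000 * (S4 u - Ax.e4 * (1 + u) ^ 4) := by
        simp only [lpu4, evalIL, List.map_cons, List.map_nil, List.sum_cons, List.sum_nil, S4, Ax]
        push_cast
        ring
      rw [e] at hx
      have := cmul_nonpos (by norm_num) hx
      simp only [Ax] at this ⊢
      linarith
    · have hx := hnu4 (-u / (415989 / 1000000 : ℝ)) (by apply div_nonneg <;> [linarith; norm_num]) (by rw [div_le_one (by norm_num)]; linarith)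
      have e : evalIL lnu4 (-u / (415989 / 1000000 : ℝ)) 0 = 3355443200000000000000000000000000000000000000000000000000000000000000000 * (S4 u - Ax.e4 * (1 + u) ^ 4) := by
        simp only [lnu4, evalIL, List.map_cons, List.map_nil, List.sum_cons, List.sum_nil, S4, Ax]
        push_cast
        ring
      rw [e] at hx
      have := cmul_nonpos (by norm_num) hx
      simp only [Ax] at this ⊢
      linarith
  · rcases le_total 0 u with hs | hs
    · have hx := hpl4 (u / (2 * (415989 / 1000000 : ℝ))) (by positivity) (by rw [div_le_one (by norm_num)]; exact h1)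
      have e : evalIL lpl4 (u / (2 * (415989 / 1000000 : ℝ))) 0 = 1638400000000000000000000000000000000000000000000000000000000000000000 * (-S4 u - Ax.e4 * (1 + u) ^ 4) := by
        simp only [lpl4, evalIL, List.map_cons, List.map_nil, List.sum_cons, List.sum_nil, S4, Ax]
        push_cast
        ring
      rw [e] at hx
      have := cmul_nonpos (by norm_num) hx
      simp only [Ax] at this ⊢
      linarith
    · have hx := hnl4 (-u / (415989 / 1000000 : ℝ)) (by apply div_nonneg <;> [linarith; norm_num]) (by rw [div_le_one (by norm_num)]; linarith)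
      have e : evalIL lnl4 (-u / (415989 / 1000000 : ℝ)) 0 = 3355443200000000000000000000000000000000000000000000000000000000000000000 * (-S4 u - Ax.e4 * (1 + u) ^ 4) := by
        simp only [lnl4, evalIL, List.map_cons, List.map_nil, List.sum_cons, List.sum_nil, S4, Ax]
        push_cast
        ring
      rw [e] at hx
      have := cmul_nonpos (by norm_num) hx
      simp only [Ax] at this ⊢
      linarith

/-- The quotient polynomial for `j = 5`. -/
noncomputable def S5 (u : ℝ) : ℝ :=
  (4055 / 131072 : ℝ) * u ^ 0 + (-14900245 / 16777216 : ℝ) * u ^ 1 + (-123304565 / 16777216 : ℝ) * u ^ 2 + (184749519 / 16777216 : ℝ) * u ^ 3 + (2265324699 / 16777216 : ℝ) * u ^ 4 + (854414211 / 16777216 : ℝ) * u ^ 5 + (-2858183057 / 4194304 : ℝ) * u ^ 6 + (-5090956297 / 8388608 : ℝ) * u ^ 7 + (19117588083 / 16777216 : ℝ) * u ^ 8 + (6238161981 / 4194304 : ℝ) * u ^ 9 + (-5842929049 / 16777216 : ℝ) * u ^ 10 + (-18109360943 / 16777216 : ℝ) * u ^ 11 + (-1578901331 / 4194304 : ℝ) * u ^ 12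

/-- Certificate polynomial. -/
def lpu5 : List ITm := [⟨(-54901804924011230468750000000000000000000000000000000000000000000000000000),0,0⟩,⟨(-1116802543272771835327148437500000000000000000000000000000000000000000000000),1,0⟩,⟨(-5808648541038615547599792480468750000000000000000000000000000000000000000000),2,0⟩,⟨5995190378792515858805326492309570312500000000000000000000000000000000000000,3,0⟩,⟨66038313945283617216569688587423721313476562500000000000000000000000000000000,4,0⟩,⟨20753248868656681415387322278841077188751220703125000000000000000000000000000,5,0⟩,⟨(-231420137250309978028295081259516054668280890625000000000000000000000000000000),6,0⟩,⟨(-171471648055034355672211651197025098105870930284578125000000000000000000000000),7,0⟩,⟨267860021696606791169268129413674854308651364056382986296875000000000000000000,8,0⟩,⟨290872913538774423018247176030910894986085341000537076281016125000000000000000,9,0⟩,⟨(-56666853335653933574516100468510830679096667646650700826546043403062500000000),10,0⟩,⟨(-146121274602937422057108880268411419400805685149217316316083220005452728375000),11,0⟩,⟨(-42397197631780011383734838035917524830957677712835952535963489425175593243651),12,0⟩]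

/-- Certificate tree. -/
def tpu5 : OutT := (A (A (A (A (O l) (O l)) (O l)) (A (A (O l) (O l)) (A (A (O l) (A (O l) (O l))) (A (A (O l) (A (O l) (O l))) (A (A (O l) (O l)) (A (A (O l) (O l)) (O l))))))) (A (A (A (A (A (A (O l) (O l)) (A (O l) (O l))) (A (O l) (O l))) (A (A (O l) (O l)) (A (O l) (O l)))) (A (A (O l) (O l)) (A (O l) (O l)))) (A (A (A (O l) (A (O l) (O l))) (A (A (O l) (O l)) (A (O l) (A (O l) (O l))))) (A (A (A (A (O l) (O l)) (A (O l) (A (O l) (O l)))) (A (A (A (O l) (O l)) (A (O l) (O l))) (A (A (A (O l) (O l)) (A (O l) (O l))) (A (A (O l) (O l)) (A (O l) (O l)))))) (A (A (A (A (A (O l) (O l)) (A (O l) (O l))) (A (A (O l) (O l)) (O l))) (A (A (O l) (O l)) (A (O l) (O l)))) (A (A (O l) (O l)) (A (O l) (O l))))))))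

theorem hpu5 (x : ℝ) (h0 : 0 ≤ x) (h1 : x ≤ 1) : evalIL lpu5 x 0 ≤ 0 :=
  uni_le 12 65536 lpu5 (by norm_num) (by norm_num) (by decide +kernel)
    (chkOut_sound (uniPb 12 65536 lpu5) tpu5 0 32768 0 32768 (by decide +kernel)) x h0 h1

/-- Certificate polynomial. -/
def lpl5 : List ITm := [⟨(-118261179924011230468750000000000000000000000000000000000000000000000000000),0,0⟩,⟨396463574233331680297851562500000000000000000000000000000000000000000000000,1,0⟩,⟨4610036191471624864997863769531250000000000000000000000000000000000000000000,2,0⟩,⟨(-6992409484160561632935113937377929687500000000000000000000000000000000000000),3,0⟩,⟨(-66453146123706565210104164736910263061523437500000000000000000000000000000000),4,0⟩,⟨(-20822275117884674900540287558420579994842529296875000000000000000000000000000),5,0⟩,⟨231420137250309978028295081259516054668280890625000000000000000000000000000000,6,0⟩,⟨171471648055034355672211651197025098105870930284578125000000000000000000000000,7,0⟩,⟨(-267860021696606791169268129413674854308651364056382986296875000000000000000000),8,0⟩,⟨(-290872913538774423018247176030910894986085341000537076281016125000000000000000),9,0⟩,⟨56666853335653933574516100468510830679096667646650700826546043403062500000000,10,0⟩,⟨146121274602937422057108880268411419400805685149217316316083220005452728375000,11,0⟩,⟨42397197631780011383734838035917524830957677712835952535963489425175593243651,12,0⟩]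

/-- Certificate tree. -/
def tpl5 : OutT := (A (A (A (A (O l) (O l)) (A (A (O l) (A (O l) (O l))) (A (A (O l) (O l)) (O l)))) (A (A (A (O l) (O l)) (O l)) (A (O l) (O l)))) (A (A (A (A (O l) (O l)) (A (O l) (O l))) (A (A (A (O l) (O l)) (A (O l) (O l))) (A (A (A (O l) (O l)) (A (O l) (O l))) (A (A (A (O l) (O l)) (A (O l) (O l))) (A (A (O l) (O l)) (A (A (O l) (O l)) (A (O l) (O l)))))))) (A (A (A (A (A (A (A (O l) (O l)) (A (O l) (O l))) (A (A (O l) (O l)) (O l))) (A (A (O l) (O l)) (A (O l) (O l)))) (A (A (A (O l) (O l)) (O l)) (A (O l) (O l)))) (A (A (A (O l) (O l)) (A (O l) (O l))) (A (O l) (O l)))) (A (A (A (O l) (O l)) (A (O l) (O l))) (A (A (O l) (O l)) (A (A (O l) (O l)) (A (O l) (A (O l) (A (O l) (O l))))))))))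

theorem hpl5 (x : ℝ) (h0 : 0 ≤ x) (h1 : x ≤ 1) : evalIL lpl5 x 0 ≤ 0 :=
  uni_le 12 65536 lpl5 (by norm_num) (by norm_num) (by decide +kernel)
    (chkOut_sound (uniPb 12 65536 lpl5) tpl5 0 32768 0 32768 (by decide +kernel)) x h0 h1

/-- Certificate polynomial. -/
def lnu5 : List ITm := [⟨(-224877792968750000000000000000000000000000000000000000000000000000000000000000),0,0⟩,⟨2287211608622636718750000000000000000000000000000000000000000000000000000000000,1,0⟩,⟨(-5948056106023542320742187500000000000000000000000000000000000000000000000000000),2,0⟩,⟨(-3069537473941768119708327164062500000000000000000000000000000000000000000000000),3,0⟩,⟨16905808369992606007441840278380472656250000000000000000000000000000000000000000,4,0⟩,⟨(-2656415855188055221169577251691657880160156250000000000000000000000000000000000),5,0⟩,⟨(-14810888784019838593810885200609027498769977000000000000000000000000000000000000),6,0⟩,⟨5487092737761099381510772838304803139387869769106500000000000000000000000000000,7,0⟩,⟨4285760347145708658708290070618797668938421824902127780750000000000000000000000,8,0⟩,⟨(-2326983308310195384145977408247287159888682728004296610248129000000000000000000),9,0⟩,⟨(-226667413342615734298064401874043322716386670586602803306184173612250000000000),10,0⟩,⟨292242549205874844114217760536822838801611370298434632632166440010905456750000,11,0⟩,⟨(-42397197631780011383734838035917524830957677712835952535963489425175593243651),12,0⟩]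

/-- Certificate tree. -/
def tnu5 : OutT := (A (A (A (A (O l) (O l)) (A (A (O l) (O l)) (A (O l) (O l)))) (A (A (A (O l) (O l)) (O l)) (A (O l) (O l)))) (A (A (A (O l) (O l)) (A (A (O l) (O l)) (A (O l) (O l)))) (A (A (A (O l) (A (O l) (O l))) (A (A (O l) (A (O l) (O l))) (A (A (O l) (O l)) (A (O l) (O l))))) (A (A (A (A (A (O l) (O l)) (A (O l) (O l))) (A (A (O l) (A (O l) (O l))) (A (A (O l) (O l)) (A (O l) (O l))))) (A (A (A (A (O l) (O l)) (A (O l) (O l))) (A (A (O l) (O l)) (A (O l) (O l)))) (A (A (A (O l) (O l)) (A (O l) (O l))) (A (O l) (O l))))) (A (A (A (A (O l) (O l)) (A (O l) (O l))) (A (O l) (O l))) (A (A (O l) (O l)) (A (O l) (O l))))))))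

theorem hnu5 (x : ℝ) (h0 : 0 ≤ x) (h1 : x ≤ 1) : evalIL lnu5 x 0 ≤ 0 :=
  uni_le 12 65536 lnu5 (by norm_num) (by norm_num) (by decide +kernel)
    (chkOut_sound (uniPb 12 65536 lnu5) tnu5 0 32768 0 32768 (by decide +kernel)) x h0 h1

/-- Certificate polynomial. -/
def lnl5 : List ITm := [⟨(-484397792968750000000000000000000000000000000000000000000000000000000000000000),0,0⟩,⟨(-811957400029863281250000000000000000000000000000000000000000000000000000000000),1,0⟩,⟨4720677060066943861757812500000000000000000000000000000000000000000000000000000,2,0⟩,⟨3580113655890207556062778335937500000000000000000000000000000000000000000000000,3,0⟩,⟨(-17012005407668880693786666172649027343750000000000000000000000000000000000000000),4,0⟩,⟨2665251215089238387269156807477834239339843750000000000000000000000000000000000,5,0⟩,⟨14810888784019838593810885200609027498769977000000000000000000000000000000000000,6,0⟩,⟨(-5487092737761099381510772838304803139387869769106500000000000000000000000000000),7,0⟩,⟨(-4285760347145708658708290070618797668938421824902127780750000000000000000000000),8,0⟩,⟨2326983308310195384145977408247287159888682728004296610248129000000000000000000,9,0⟩,⟨226667413342615734298064401874043322716386670586602803306184173612250000000000,10,0⟩,⟨(-292242549205874844114217760536822838801611370298434632632166440010905456750000),11,0⟩,⟨42397197631780011383734838035917524830957677712835952535963489425175593243651,12,0⟩]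

/-- Certificate tree. -/
def tnl5 : OutT := (A (A (O l) (A (O l) (A (O l) (O l)))) (A (A (A (A (O l) (O l)) (A (A (O l) (O l)) (A (A (O l) (O l)) (A (O l) (O l))))) (A (A (A (A (A (O l) (O l)) (A (O l) (O l))) (A (A (O l) (O l)) (A (O l) (O l)))) (A (A (A (O l) (O l)) (O l)) (A (O l) (O l)))) (A (A (A (O l) (O l)) (A (O l) (O l))) (A (O l) (O l))))) (A (A (A (A (O l) (O l)) (A (O l) (O l))) (A (A (O l) (O l)) (A (O l) (O l)))) (A (A (A (O l) (O l)) (A (O l) (O l))) (A (A (O l) (A (O l) (O l))) (A (A (O l) (O l)) (A (O l) (A (O l) (A (O l) (A (O l) (O l)))))))))))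

theorem hnl5 (x : ℝ) (h0 : 0 ≤ x) (h1 : x ≤ 1) : evalIL lnl5 x 0 ≤ 0 :=
  uni_le 12 65536 lnl5 (by norm_num) (by norm_num) (by decide +kernel)
    (chkOut_sound (uniPb 12 65536 lnl5) tnl5 0 32768 0 32768 (by decide +kernel)) x h0 h1

theorem apx5 (u : ℝ) (h0 : -(415989 / 1000000 : ℝ) ≤ u) (h1 : u ≤ 2 * (415989 / 1000000 : ℝ)) :
    |((1 + u)⁻¹) ^ 5 - evalZ Ax.p5 (3 * u) / Ax.D5| ≤ Ax.e5 * |u| ^ Ax.m5 := by
  have hu : 0 < 1 + u := by norm_num at h0 ⊢; linarith
  refine apx_of_S 5 2 _ (S5 u) _ u hu ?_ ?_ ?_
  · simp only [Ax, evalZ_cons, evalZ_nil, S5]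
    push_cast
    ring
  · rcases le_total 0 u with hs | hs
    · have hx := hpu5 (u / (2 * (415989 / 1000000 : ℝ))) (by positivity) (by rw [div_le_one (by norm_num)]; exact h1)
      have e : evalIL lpu5 (u / (2 * (415989 / 1000000 : ℝ))) 0 = 1024000000000000000000000000000000000000000000000000000000000000000000000000 * (S5 u - Ax.e5 * (1 + u) ^ 5) := by
        simp only [lpu5, evalIL, List.map_cons, List.map_nil, List.sum_cons, List.sum_nil, S5, Ax]
        push_cast
        ring
      rw [e] at hx
      have := cmul_nonpos (by norm_num) hx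
      simp only [Ax] at this ⊢
      linarith
    · have hx := hnu5 (-u / (415989 / 1000000 : ℝ)) (by apply div_nonneg <;> [linarith; norm_num]) (by rw [div_le_one (by norm_num)]; linarith)
      have e : evalIL lnu5 (-u / (415989 / 1000000 : ℝ)) 0 = 4194304000000000000000000000000000000000000000000000000000000000000000000000000 * (S5 u - Ax.e5 * (1 + u) ^ 5) := by
        simp only [lnu5, evalIL, List.map_cons, List.map_nil, List.sum_cons, List.sum_nil, S5, Ax]
        push_cast
        ring
      rw [e] at hx
      have := cmul_nonpos (by norm_num) hx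
      simp only [Ax] at this ⊢
      linarith
  · rcases le_total 0 u with hs | hs
    · have hx := hpl5 (u / (2 * (415989 / 1000000 : ℝ))) (by positivity) (by rw [div_le_one (by norm_num)]; exact h1)
      have e : evalIL lpl5 (u / (2 * (415989 / 1000000 : ℝ))) 0 = 1024000000000000000000000000000000000000000000000000000000000000000000000000 * (-S5 u - Ax.e5 * (1 + u) ^ 5) := by
        simp only [lpl5, evalIL, List.map_cons, List.map_nil, List.sum_cons, List.sum_nil, S5, Ax]
        push_cast
        ring
      rw [e] at hx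
      have := cmul_nonpos (by norm_num) hx
      simp only [Ax] at this ⊢
      linarith
    · have hx := hnl5 (-u / (415989 / 1000000 : ℝ)) (by apply div_nonneg <;> [linarith; norm_num]) (by rw [div_le_one (by norm_num)]; linarith)
      have e : evalIL lnl5 (-u / (415989 / 1000000 : ℝ)) 0 = 4194304000000000000000000000000000000000000000000000000000000000000000000000000 * (-S5 u - Ax.e5 * (1 + u) ^ 5) := by
        simp only [lnl5, evalIL, List.map_cons, List.map_nil, List.sum_cons, List.sum_nil, S5, Ax]
        push_cast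
        ring
      rw [e] at hx
      have := cmul_nonpos (by norm_num) hx
      simp only [Ax] at this ⊢
      linarith

theorem hAx : Ax.OK (-(415989 / 1000000 : ℝ)) (2 * (415989 / 1000000 : ℝ)) where
  e10 := by simp only [Ax]; norm_num
  e20 := by simp only [Ax]; norm_num
  e30 := by simp only [Ax]; norm_num
  e40 := by simp only [Ax]; norm_num
  e50 := by simp only [Ax]; norm_num
  h1 := fun u a b => by simpa using apx1 u a b
  h2 := apx2
  h3 := apx3
  h4 := apx4
  h5 := apx5

end Vale.Agent.P154.D5.K1
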