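import Vale.Agent.P154.D5.K1.Charts

set_option maxRecDepth 100000

namespace Vale.Agent.P154.D5.K1

open Cert InT OutT

/-- Certificate tree. -/
def tr01_r11 : OutT :=
(B (A s s) (A (B (A (B s (A (B s (A s s)) s)) (B s (A s s))) (A (B (A (B (A (O (c (c l (c l l)) (c (c l k) k))) (O (c (c l (c l l)) (c (c l k) k)))) (A (O (c (c l l) (c (c l k) k))) (O (c (c l l) (c (c l k) k))))) (B (A s s) (A (O (c (c l l) (c (c l k) k))) (O (c (c l l) (c (c l k) k)))))) (A (B (A (O (c (c l l) (c (c l k) k))) (O (c (c l l) (c (c l k) k)))) (A (O (c (c l l) (c (c l k) k))) (O (c (c l l) (c (c l k) k))))) (B (A (O (c (c l l) (c (c l k) k))) (O (c (c l l) (c (c l k) k)))) (A (O (c (c l l) (c (c l k) k))) (B (O (c (c l l) (c (c l k) k))) (O (c (c l l) (c (c l k) k)))))))) (B (A (B s (A (B s (O (c (c l l) (c (c l k) k)))) s)) (B s (A s s))) (A (B (A (B (O (c (c l l) (c (c l k) k))) (O (c (c l l) (c (c l k) k)))) (B (O (c (c l l) (c (c l k) k))) (A (O (c (c l l) (c l k))) (O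 (c (c l l) (c l k)))))) (A (B (O (c (c l l) (c (c l k) k))) (O (c (c l l) (c (c l k) k)))) (B (A (O (c (c l l) (c l k))) (O (c (c l l) (c l k)))) (A (O (c (c l l) (c l k))) (O (c l (c l k))))))) (B (A (B (A s s) (A (O (c l (c l k))) (O (c l (c l k))))) (B s (A (O (c l (c l k))) (O (c l (c l k)))))) (A (B (A (O (c l (c l k))) (O (c l (c l k)))) (A (O (c l (c l k))) (O (c l (c l k))))) (B (A (O (c l (c l k))) (O (c l (c l k)))) (A (O (c l (c l k))) (O (c l (c l k))))))))))) (B (A s s) (A (B (A (B s (A s s)) s) (A (B (A (B s (A s s)) (B s (A s s))) (A (B (A (O (c l (c l k))) (O (c l (c l k)))) (A (O (c l (c l k))) (O (c l (c l k))))) (B (A (O (c l (c l k))) (O (c l (c l k)))) (A (O (c l (c l k))) (O (c l (c l k))))))) (B (A (B s (A s s)) s) (A (B (A (O (c l (c l k))) (O (c l (c l k)))) (A (O (c l (c l k))) (O (c l (c l k))))) (B (A (O (c l (c l k))) (O (c l (c l k)))) (A (O (c l (c l k))) (O (c l (c l k))))))))) (B (A s s) (A (B (A s s) (A (B (A s s) (A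 (B (O (c l (c l k))) (O (c l (c l k)))) (B (O (c l (c l k))) (O (c l (c l k)))))) (B (A s s) (A (B (O (c l (c l k))) (O (c l (c l k)))) (B (O (c l (c l k))) (O (c l (c l k)))))))) (B (A s s) (A (B (A s s) (A (B (O (c l (c l k))) (O (c l (c l k)))) (B (O (c l (c l k))) (O (c l (c l k)))))) (B (A s s) (A (B (A s s) (A (O (c l (c l k))) (O (c l (c l k))))) (B (A s s) (A (O (c l (c l k))) (O (c l (c l k)))))))))))))))

theorem s01_r11 : Sound P01 49152 8192 0 32768 :=
  chkOut2_sound P01 KK tr01_r11 49152 8192 0 32768 (by decide +kernel)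

end Vale.Agent.P154.D5.K1
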