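import Vale.Agent.P154.D5.K1.Charts

set_option maxRecDepth 100000

namespace Vale.Agent.P154.D5.K1

open Cert InT OutT

/-- Certificate tree. -/
def tr11_r1 : OutT :=
(A (B (A (B (A (O (c (c l (c l (c l l))) (c (c (c l (d l k)) k) k))) (B (O (c (c l (c l (d l (c l l)))) (c (c (c (d (c l l) (c (c l l) (c (c l k) k))) (d (d (d l (c l k)) k) k)) k) k))) (O (c (c l (c l l)) (c (c (c (d l (c l l)) (d (d (d l l) k) k)) k) k))))) (A (O (c (c l (c l (c l l))) (c (c (c (d l l) (d l k)) k) k))) s)) s) (A (B (A (B (O (c (c l (c l l)) (c (c (c l (c l k)) k) k))) (O (c (c l (c l l)) (c (c (c l (c l k)) k) k)))) s) (A (B (O (c (c l (c l l)) (c (c (c l (d l k)) k) k))) (O (c (c l (c l l)) (c (c (d l (c l k)) k) k)))) s)) s)) s)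

theorem s11_r1 : Sound P11 32768 16384 0 32768 :=
  chkOut2_sound P11 KK tr11_r1 32768 16384 0 32768 (by decide +kernel)

end Vale.Agent.P154.D5.K1
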