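import Vale.Agent.P154.D5.K1.T00_r00
import Vale.Agent.P154.D5.K1.T00_r01
import Vale.Agent.P154.D5.K1.T00_r100
import Vale.Agent.P154.D5.K1.T00_r1010
import Vale.Agent.P154.D5.K1.T00_r10110
import Vale.Agent.P154.D5.K1.T00_r101110
import Vale.Agent.P154.D5.K1.T00_r101111
import Vale.Agent.P154.D5.K1.T00_r110
import Vale.Agent.P154.D5.K1.T00_r11100
import Vale.Agent.P154.D5.K1.T00_r111010
import Vale.Agent.P154.D5.K1.T00_r111011
import Vale.Agent.P154.D5.K1.T00_r1111
import Vale.Agent.P154.D5.K1.T01_r0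
import Vale.Agent.P154.D5.K1.T01_r10
import Vale.Agent.P154.D5.K1.T01_r11
import Vale.Agent.P154.D5.K1.T10_r00
import Vale.Agent.P154.D5.K1.T10_r01
import Vale.Agent.P154.D5.K1.T10_r1
import Vale.Agent.P154.D5.K1.T11_r0
import Vale.Agent.P154.D5.K1.T11_r1

namespace Vale.Agent.P154.D5.K1

open Cert

theorem s00_r0 : Sound P00 0 16384 0 32768 :=
  sound_splitA P00 0 8192 16384 0 32768 rfl s00_r00 s00_r01

theorem s00_r10111 : Sound P00 40960 4096 49152 8192 :=
  sound_splitA P00 40960 2048 4096 49152 8192 rfl s00_r101110 s00_r101111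

theorem s00_r1011 : Sound P00 40960 4096 32768 16384 :=
  sound_splitB P00 40960 4096 32768 8192 16384 rfl s00_r10110 s00_r10111

theorem s00_r101 : Sound P00 32768 8192 32768 16384 :=
  sound_splitA P00 32768 4096 8192 32768 16384 rfl s00_r1010 s00_r1011

theorem s00_r10 : Sound P00 32768 8192 0 32768 :=
  sound_splitB P00 32768 8192 0 16384 32768 rfl s00_r100 s00_r101

theorem s00_r11101 : Sound P00 49152 4096 49152 8192 :=
  sound_splitA P00 49152 2048 4096 49152 8192 rfl s00_r111010 s00_r111011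

theorem s00_r1110 : Sound P00 49152 4096 32768 16384 :=
  sound_splitB P00 49152 4096 32768 8192 16384 rfl s00_r11100 s00_r11101

theorem s00_r111 : Sound P00 49152 8192 32768 16384 :=
  sound_splitA P00 49152 4096 8192 32768 16384 rfl s00_r1110 s00_r1111

theorem s00_r11 : Sound P00 49152 8192 0 32768 :=
  sound_splitB P00 49152 8192 0 16384 32768 rfl s00_r110 s00_r111

theorem s00_r1 : Sound P00 32768 16384 0 32768 :=
  sound_splitA P00 32768 8192 16384 0 32768 rfl s00_r10 s00_r11

theorem s00_r : Sound P00 0 32768 0 32768 :=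
  sound_splitA P00 0 16384 32768 0 32768 rfl s00_r0 s00_r1

theorem s01_r1 : Sound P01 32768 16384 0 32768 :=
  sound_splitA P01 32768 8192 16384 0 32768 rfl s01_r10 s01_r11

theorem s01_r : Sound P01 0 32768 0 32768 :=
  sound_splitA P01 0 16384 32768 0 32768 rfl s01_r0 s01_r1

theorem s10_r0 : Sound P10 0 16384 0 32768 :=
  sound_splitA P10 0 8192 16384 0 32768 rfl s10_r00 s10_r01

theorem s10_r : Sound P10 0 32768 0 32768 :=
  sound_splitA P10 0 16384 32768 0 32768 rfl s10_r0 s10_r1

theorem s11_r : Sound P11 0 32768 0 32768 :=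
  sound_splitA P11 0 16384 32768 0 32768 rfl s11_r0 s11_r1

end Vale.Agent.P154.D5.K1
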