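import Vale.Agent.P154.D5.K1.Data
import Vale.Agent.P154.Check2

namespace Vale.Agent.P154.D5.K1

open Cert

/-- Chart (0, 0). -/
def P00 : Pb := chartPb false false Nd w G []

/-- Chart (0, 1). -/
def P01 : Pb := chartPb false true Nd w G []

/-- Chart (1, 0). -/
def P10 : Pb := chartPb true false Nd w G []

/-- Chart (1, 1). -/
def P11 : Pb := chartPb true true Nd w G []

/-- The offset. -/
def KK : ℕ := 32841643250247479663977389709573050467643594256303195804087136872102242834552279700083703112098781916210882032455371070458574156362183877992614002004105982484168059294998151551980361741104231117070135239446747829878512735878449572009835383922649319810362212707022541005543858695569422494501573128657623051750157762043516851219611198816907719489886305124352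

end Vale.Agent.P154.D5.K1
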